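import Mathlib

/-!
Smoothness of the substitution operator `γ ↦ X ∘ γ` on continuous curves, the Volterra operator,
and smooth dependence of flows on initial conditions and time.
-/

open Set Filter Topology Metric
open scoped ContDiff NNReal

set_option linter.unusedSectionVars false

noncomputable section

namespace Crest.Agent.ODEFlow

universe u

section Nemytskii

variable {K : Type} [TopologicalSpace K] [CompactSpace K]
variable {E F : Type u} [NormedAddCommGroup E] [NormedSpace ℝ E]
  [NormedAddCommGroup F] [NormedSpace ℝ F]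

/-- substitution operator -/
def nem (f : E → F) (hf : Continuous f) (γ : C(K, E)) : C(K, F) := ⟨fun k => f (γ k), hf.comp γ.continuous⟩

@[simp] lemma nem_apply (f : E → F) (hf : Continuous f) (γ : C(K, E)) (k : K) :
    nem f hf γ k = f (γ k) := rfl

lemma continuous_nem (f : E → F) (hf : Continuous f) : Continuous (nem (K := K) f hf) :=
  ContinuousMap.continuous_postcomp (⟨f, hf⟩ : C(E, F))

/-- pointwise application of operator valued functions -/
def pap : C(K, E →L[ℝ] F) →L[ℝ] C(K, E) →L[ℝ] C(K, F) :=
  LinearMap.mkContinuous₂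
    (LinearMap.mk₂ ℝ (fun (A : C(K, E →L[ℝ] F)) (h : C(K, E)) => (⟨fun k => A k (h k), by fun_prop⟩ : C(K, F)))
      (by intros; ext; simp) (by intros; ext; simp) (by intros; ext; simp) (by intros; ext; simp))
    1 (by
      intro A h
      simp only [LinearMap.mk₂_apply, one_mul]
      rw [ContinuousMap.norm_le _ (by positivity)]
      intro k
      exact (A k).le_of_opNorm_le_of_le (A.norm_coe_le_norm k) (h.norm_coe_le_norm k))

@[simp] lemma pap_apply (A : C(K, E →L[ℝ] F)) (h : C(K, E)) (k : K) : pap A h k = A k (h k) := rfl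

lemma hasFDerivAt_nem (f : E → F) (hf : ContDiff ℝ 1 f) (γ : C(K, E)) :
    HasFDerivAt (nem (K := K) f hf.continuous)
      (pap (nem (K := K) (fderiv ℝ f) (hf.continuous_fderiv (by simp)) γ)) γ := by
  have hc := (continuous_nem (K := K) (fderiv ℝ f) (hf.continuous_fderiv (by simp))).continuousAt (x := γ)
  rw [hasFDerivAt_iff_isLittleO_nhds_zero, Asymptotics.isLittleO_iff]
  intro c hc0
  rw [Metric.continuousAt_iff] at hc
  obtain ⟨δ, hδ, H⟩ := hc c hc0
  filter_upwards [Metric.ball_mem_nhds (0 : C(K, E)) hδ] with h hh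
  rw [mem_ball_zero_iff] at hh
  rw [ContinuousMap.norm_le _ (by positivity)]
  intro k
  simp only [ContinuousMap.sub_apply, nem_apply, ContinuousMap.add_apply, pap_apply]
  -- mean value inequality along the segment
  have hseg : ∀ y ∈ segment ℝ (γ k) (γ k + h k), ‖fderiv ℝ f y - fderiv ℝ f (γ k)‖ ≤ c := by
    intro y hy
    rw [segment_eq_image'] at hy
    obtain ⟨θ, hθ, rfl⟩ := hy
    have h1 : dist (γ + θ • h) γ < δ := by
      rw [dist_eq_norm, add_sub_cancel_left, norm_smul, Real.norm_eq_abs, abs_of_nonneg hθ.1]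
      calc θ * ‖h‖ ≤ 1 * ‖h‖ := by gcongr; exact hθ.2
        _ < δ := by rw [one_mul]; exact hh
    have h2 := (H h1).le
    rw [dist_eq_norm] at h2
    have h3 := (ContinuousMap.norm_coe_le_norm (nem (K := K) (fderiv ℝ f) (hf.continuous_fderiv (by simp)) (γ + θ • h)
        - nem (K := K) (fderiv ℝ f) (hf.continuous_fderiv (by simp)) γ) k).trans h2
    simpa using h3
  have hmv := (convex_segment (γ k) (γ k + h k)).norm_image_sub_le_of_norm_hasFDerivWithin_le'
    (f := f) (f' := fderiv ℝ f) (φ := fderiv ℝ f (γ k)) (C := c)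
    (fun y _ => ((hf.differentiable (by simp)) y).hasFDerivAt.hasFDerivWithinAt)
    hseg (left_mem_segment ℝ _ _) (right_mem_segment ℝ _ _)
  simp only [add_sub_cancel_left] at hmv
  exact hmv.trans (by gcongr; exact h.norm_coe_le_norm k)

theorem contDiff_nem_nat (n : ℕ) : ∀ {E F : Type u} [NormedAddCommGroup E] [NormedSpace ℝ E]
    [NormedAddCommGroup F] [NormedSpace ℝ F] (f : E → F) (hf : ContDiff ℝ n f),
    ContDiff ℝ n (nem (K := K) f hf.continuous) := by
  induction n with
  | zero =>
    intro E F _ _ _ _ f hf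
    exact contDiff_zero.2 (continuous_nem f _)
  | succ n ih =>
    intro E F _ _ _ _ f hf
    have hf1 : ContDiff ℝ 1 f := hf.of_le (by norm_cast; omega)
    have hf' : ContDiff ℝ n (fderiv ℝ f) := hf.fderiv_right (by norm_cast)
    refine contDiff_succ_iff_hasFDerivAt.2 ?_
    refine ⟨fun γ => pap (nem (K := K) (fderiv ℝ f) hf'.continuous γ), ?_, fun γ => hasFDerivAt_nem f hf1 γ⟩
    exact (pap (K := K) (E := E) (F := F)).contDiff.comp (ih (fderiv ℝ f) hf')

theorem contDiff_nem {n : ℕ∞} (f : E → F) (hf : ContDiff ℝ n f) :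
    ContDiff ℝ n (nem (K := K) f hf.continuous) := by
  induction n with
  | top =>
    rw [contDiff_infty]
    intro m
    exact contDiff_nem_nat m f (hf.of_le (by exact_mod_cast le_top))
  | coe n => exact contDiff_nem_nat n f hf

end Nemytskii

end Crest.Agent.ODEFlow
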