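import Mathlib
import Crest.Agent.ODEFlow.Nemytskii

open Set Filter Topology Metric MeasureTheory
open scoped ContDiff NNReal unitInterval

set_option linter.unusedSectionVars false

noncomputable section

namespace Crest.Agent.ODEFlow

universe u

variable {E : Type u} [NormedAddCommGroup E] [NormedSpace ℝ E] [CompleteSpace E]

/-- extension of a curve on the unit interval to the line -/
abbrev ext01 (γ : C(I, E)) : ℝ → E := IccExtend (zero_le_one (α := ℝ)) γ

lemma continuous_ext01 (γ : C(I, E)) : Continuous (ext01 γ) := γ.continuous.Icc_extend'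

lemma norm_ext01_le (γ : C(I, E)) (r : ℝ) : ‖ext01 γ r‖ ≤ ‖γ‖ := γ.norm_coe_le_norm _

/-- the Volterra operator `(Vγ)(s) = ∫₀ˢ γ` -/
def volt : C(I, E) →L[ℝ] C(I, E) :=
  LinearMap.mkContinuous
    { toFun := fun γ => ⟨fun s => ∫ r in (0:ℝ)..s, ext01 γ r, by
        have := intervalIntegral.continuous_primitive (μ := volume)
          (fun a b => (continuous_ext01 γ).intervalIntegrable a b) 0
        exact this.comp continuous_subtype_val⟩
      map_add' := by
        intro γ₁ γ₂
        ext s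
        simp only [ContinuousMap.coe_mk, ContinuousMap.add_apply]
        rw [← intervalIntegral.integral_add ((continuous_ext01 γ₁).intervalIntegrable _ _)
          ((continuous_ext01 γ₂).intervalIntegrable _ _)]
        rfl
      map_smul' := by
        intro c γ
        ext s
        simp only [ContinuousMap.coe_mk, ContinuousMap.smul_apply, RingHom.id_apply]
        rw [← intervalIntegral.integral_smul]
        rfl }
    1 (by
      intro γ
      rw [one_mul, ContinuousMap.norm_le _ (norm_nonneg _)]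
      intro s
      have := intervalIntegral.norm_integral_le_of_norm_le_const (a := 0) (b := (s:ℝ))
        (f := ext01 γ) (C := ‖γ‖) (fun r _ => norm_ext01_le γ r)
      refine this.trans ?_
      rw [sub_zero, abs_of_nonneg s.2.1]
      exact mul_le_of_le_one_right (norm_nonneg _) s.2.2)

lemma volt_apply (γ : C(I, E)) (s : I) : volt γ s = ∫ r in (0:ℝ)..s, ext01 γ r := rfl

/-- iterated Volterra bound -/
lemma norm_pow_volt_apply_le (A : C(I, E →L[ℝ] E)) (t : ℝ) (γ : C(I, E)) (n : ℕ) (s : I) :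
    ‖((t • volt.comp (pap A)) ^ n) γ s‖ ≤ (|t| * ‖A‖ * s) ^ n / n.factorial * ‖γ‖ := by
  induction n generalizing s with
  | zero => simpa using γ.norm_coe_le_norm s
  | succ n ih =>
    rw [pow_succ']
    change ‖t • (∫ r in (0:ℝ)..s, ext01 (pap A (((t • volt.comp (pap A)) ^ n) γ)) r)‖ ≤ _
    set g : C(I, E) := ((t • volt.comp (pap A)) ^ n) γ with hg
    have hb : ∀ r ∈ Ioc (0:ℝ) s, ‖ext01 (pap A g) r‖ ≤ ‖A‖ * ((|t| * ‖A‖ * r) ^ n / n.factorial * ‖γ‖) := by
      intro r hr
      have hrI : r ∈ Icc (0:ℝ) 1 := ⟨hr.1.le, hr.2.trans s.2.2⟩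
      rw [ext01, IccExtend_of_mem _ _ hrI, pap_apply]
      exact (A ⟨r, hrI⟩).le_of_opNorm_le_of_le (A.norm_coe_le_norm _) (ih ⟨r, hrI⟩)
    rw [norm_smul, Real.norm_eq_abs]
    have hint : ‖∫ r in (0:ℝ)..s, ext01 (pap A g) r‖ ≤
        ∫ r in (0:ℝ)..s, ‖A‖ * ((|t| * ‖A‖ * r) ^ n / n.factorial * ‖γ‖) := by
      refine intervalIntegral.norm_integral_le_of_norm_le s.2.1 ?_ ?_
      · filter_upwards with r hr using hb r hr
      · exact Continuous.intervalIntegrable (by fun_prop) _ _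
    have hval : ∫ r in (0:ℝ)..s, ‖A‖ * ((|t| * ‖A‖ * r) ^ n / n.factorial * ‖γ‖)
        = ‖A‖ * ((|t| * ‖A‖) ^ n * ((s:ℝ) ^ (n+1) / (n+1)) / n.factorial * ‖γ‖) := by
      have h1 : ∀ r : ℝ, ‖A‖ * ((|t| * ‖A‖ * r) ^ n / n.factorial * ‖γ‖)
          = (‖A‖ * (|t| * ‖A‖) ^ n / n.factorial * ‖γ‖) * r ^ n := by
        intro r; rw [mul_pow]; ring
      simp_rw [h1]
      rw [intervalIntegral.integral_const_mul, integral_pow]
      simp only [ne_eq, Nat.add_eq_zero_iff, one_ne_zero, and_false, not_false_eq_true, zero_pow, sub_zero]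
      ring
    calc |t| * ‖∫ r in (0:ℝ)..s, ext01 (pap A g) r‖
        ≤ |t| * (‖A‖ * ((|t| * ‖A‖) ^ n * ((s:ℝ) ^ (n+1) / (n+1)) / n.factorial * ‖γ‖)) := by
          gcongr
          exact hint.trans hval.le
      _ = (|t| * ‖A‖ * s) ^ (n+1) / (n+1).factorial * ‖γ‖ := by
          rw [Nat.factorial_succ]
          push_cast
          field_simp
          ring

lemma isUnit_one_sub_volt (A : C(I, E →L[ℝ] E)) (t : ℝ) :
    IsUnit (1 - t • volt.comp (pap A) : C(I, E) →L[ℝ] C(I, E)) := by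
  set T : C(I, E) →L[ℝ] C(I, E) := t • volt.comp (pap A) with hT
  obtain ⟨n, hn⟩ := FloorSemiring.tendsto_pow_div_factorial_atTop (|t| * ‖A‖)
    |>.eventually (gt_mem_nhds zero_lt_one) |>.exists
  have hTn : ‖T ^ n‖ < 1 := by
    have hb0 : 0 ≤ (|t| * ‖A‖) ^ n / (n.factorial : ℝ) := by positivity
    refine lt_of_le_of_lt (ContinuousLinearMap.opNorm_le_bound _ hb0 ?_) hn
    intro γ
    rw [ContinuousMap.norm_le _ (by positivity)]
    intro s
    refine (norm_pow_volt_apply_le A t γ n s).trans ?_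
    have hta : 0 ≤ |t| * ‖A‖ := by positivity
    have h1 : |t| * ‖A‖ * s ≤ |t| * ‖A‖ := mul_le_of_le_one_right hta s.2.2
    have h0 : 0 ≤ |t| * ‖A‖ * s := mul_nonneg hta s.2.1
    gcongr
  have hu : IsUnit (1 - T ^ n) := by
    have := (Units.oneSub (T ^ n) hTn).isUnit
    rwa [Units.val_oneSub] at this
  have hcomm : Commute (1 - T) (∑ i ∈ Finset.range n, T ^ i) := by
    refine Commute.sum_right _ _ _ (fun i _ => ?_)
    exact (Commute.one_left _).sub_left ((Commute.refl T).pow_right i)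
  have hgeo : (1 - T) * (∑ i ∈ Finset.range n, T ^ i) = 1 - T ^ n := mul_neg_geom_sum T n
  rw [← hgeo] at hu
  exact (hcomm.isUnit_mul_iff.1 hu).1

lemma isInvertible_of_isUnit {G : Type*} [NormedAddCommGroup G] [NormedSpace ℝ G] {T : G →L[ℝ] G}
    (h : IsUnit T) : T.IsInvertible := by
  obtain ⟨u, rfl⟩ := h
  exact ⟨ContinuousLinearEquiv.unitsEquiv ℝ G u, rfl⟩

end Crest.Agent.ODEFlow
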