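import Mathlib
import Crest.Agent.ODEFlow.Volterra

open Set Filter Topology Metric MeasureTheory
open scoped ContDiff NNReal unitInterval

set_option linter.unusedSectionVars false

noncomputable section

namespace Crest.Agent.ODEFlow

universe u

variable {E : Type u} [NormedAddCommGroup E] [NormedSpace ℝ E] [CompleteSpace E]

/-- constant curves -/
def constL : E →L[ℝ] C(I, E) :=
  LinearMap.mkContinuous
    { toFun := fun x => ContinuousMap.const I x
      map_add' := by intros; ext; simp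
      map_smul' := by intros; ext; simp }
    1 (by
      intro x
      rw [one_mul, ContinuousMap.norm_le _ (norm_nonneg _)]
      intro s
      simp)

@[simp] lemma constL_apply (x : E) (s : I) : constL x s = x := rfl

/-- the equation whose zeros are the rescaled integral curves -/
def eqn (X : E → E) (hX : Continuous X) (q : (ℝ × E) × C(I, E)) : C(I, E) :=
  q.2 - constL q.1.2 - q.1.1 • volt (nem X hX q.2)

lemma contDiff_eqn {n : ℕ∞} (X : E → E) (hX : ContDiff ℝ n X) :
    ContDiff ℝ n (eqn X hX.continuous) := by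
  unfold eqn
  have h1 : ContDiff ℝ n (fun q : (ℝ × E) × C(I, E) => volt (nem X hX.continuous q.2)) :=
    volt.contDiff.comp ((contDiff_nem X hX).comp contDiff_snd)
  have h2 : ContDiff ℝ n (fun q : (ℝ × E) × C(I, E) => (constL q.1.2 : C(I, E))) :=
    (constL (E := E)).contDiff.comp (contDiff_snd.comp (contDiff_fst (𝕜 := ℝ) (E := ℝ × E) (F := C(I, E))))
  exact (contDiff_snd.sub h2).sub ((contDiff_fst.comp contDiff_fst).smul h1)

lemma fderiv_eqn_comp_inr (X : E → E) (hX : ContDiff ℝ 1 X) (p : ℝ × E) (γ : C(I, E)) :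
    fderiv ℝ (eqn X hX.continuous) (p, γ) ∘L .inr ℝ (ℝ × E) C(I, E) =
      1 - p.1 • volt.comp (pap (nem (fderiv ℝ X) (hX.continuous_fderiv (by simp)) γ)) := by
  have hd : HasFDerivAt (eqn X hX.continuous) (fderiv ℝ (eqn X hX.continuous) (p, γ)) (p, γ) :=
    ((contDiff_eqn (n := 1) X hX).differentiable (by simp) (p, γ)).hasFDerivAt
  have h1 : HasFDerivAt (fun g : C(I, E) => eqn X hX.continuous (p, g))
      (fderiv ℝ (eqn X hX.continuous) (p, γ) ∘L .inr ℝ (ℝ × E) C(I, E)) γ :=
    hd.comp γ (hasFDerivAt_prodMk_right p γ)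
  have h2 : HasFDerivAt (fun g : C(I, E) => eqn X hX.continuous (p, g))
      (1 - p.1 • volt.comp (pap (nem (fderiv ℝ X) (hX.continuous_fderiv (by simp)) γ))) γ := by
    have h3 := (volt (E := E)).hasFDerivAt.comp γ (hasFDerivAt_nem (K := I) X hX γ)
    exact ((hasFDerivAt_id γ).sub_const (constL p.2)).sub (h3.const_smul p.1)
  exact h1.unique h2

/-- Regularity of flows: a continuous local flow of a `C^n` vector field is `C^n`. -/
theorem contDiffOn_flow {n : ℕ∞} (hn : n ≠ 0) (X : E → E) (hX : ContDiff ℝ n X)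
    (U : Set (ℝ × E)) (hU : IsOpen U)
    (hstar : ∀ p ∈ U, ∀ s ∈ Icc (0:ℝ) 1, (s * p.1, p.2) ∈ U)
    (φ : ℝ × E → E) (hφ : ContinuousOn φ U) (h0 : ∀ p ∈ U, φ (0, p.2) = p.2)
    (hd : ∀ p ∈ U, HasDerivAt (fun t => φ (t, p.2)) (X (φ p)) p.1) :
    ContDiffOn ℝ n φ U := by
  have hX1 : ContDiff ℝ 1 X := hX.of_le (by
    have : (1 : ℕ∞) ≤ n := Order.one_le_iff_ne_zero.2 hn
    exact_mod_cast this)
  -- the curve map
  have hcont : Continuous (fun q : U × I => φ ((q.2 : ℝ) * q.1.1.1, q.1.1.2)) := by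
    refine hφ.comp_continuous (by fun_prop) ?_
    intro q
    exact hstar _ q.1.2 _ q.2.2
  let G : C(U × I, E) := ⟨_, hcont⟩
  let Γ : C(U, C(I, E)) := G.curry
  have hΓ : ∀ (p : U) (s : I), Γ p s = φ ((s : ℝ) * p.1.1, p.1.2) := fun p s => rfl
  have heq : ∀ p : U, eqn X hX.continuous (p.1, Γ p) = 0 := by
    intro p
    ext s
    simp only [eqn, ContinuousMap.sub_apply, ContinuousMap.smul_apply, constL_apply, volt_apply,
      ContinuousMap.zero_apply, hΓ]
    have hder : ∀ r ∈ uIcc (0:ℝ) s, HasDerivAt (fun r : ℝ => φ (r * p.1.1, p.1.2))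
        (p.1.1 • ext01 (nem X hX.continuous (Γ p)) r) r := by
      intro r hr
      rw [uIcc_of_le s.2.1] at hr
      have hrI : r ∈ Icc (0:ℝ) 1 := ⟨hr.1, hr.2.trans s.2.2⟩
      rw [ext01, IccExtend_of_mem _ _ hrI, nem_apply, hΓ]
      have h1 := hd _ (hstar _ p.2 r hrI)
      have h2 : HasDerivAt (fun r : ℝ => r * p.1.1) p.1.1 r := by
        simpa using (hasDerivAt_id r).mul_const p.1.1
      exact h1.scomp (h := fun r : ℝ => r * p.1.1) r h2
    have hint := intervalIntegral.integral_eq_sub_of_hasDerivAt hder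
      (((continuous_ext01 _).const_smul _).intervalIntegrable _ _)
    rw [intervalIntegral.integral_smul] at hint
    rw [hint]
    simp only [zero_mul]
    rw [h0 p.1 p.2]
    abel
  -- regularity at a point
  intro p hp
  apply ContDiffAt.contDiffWithinAt
  set pU : U := ⟨p, hp⟩ with hpU
  set Φ := eqn X hX.continuous with hΦ
  set u0 : (ℝ × E) × C(I, E) := (p, Γ pU) with hu0
  have hΦn : ContDiffAt ℝ n Φ u0 := (contDiff_eqn X hX).contDiffAt
  have hn' : (n : WithTop ℕ∞) ≠ 0 := by exact_mod_cast hn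
  have hinv : (fderiv ℝ Φ u0 ∘L .inr ℝ (ℝ × E) C(I, E)).IsInvertible := by
    rw [hΦ, hu0, fderiv_eqn_comp_inr X hX1]
    exact isInvertible_of_isUnit (isUnit_one_sub_volt _ _)
  have hloc := hΦn.eventually_apply_eq_iff_implicitFunction hn' hinv
  have hsm := hΦn.contDiffAt_implicitFunction hn' hinv
  -- near p the curve map is the implicit function
  have htend : Tendsto (fun q : U => ((q.1, Γ q) : (ℝ × E) × C(I, E))) (𝓝 pU) (𝓝 u0) :=
    (continuous_subtype_val.prodMk Γ.continuous).continuousAt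
  have hev : ∀ᶠ q : U in 𝓝 pU, hΦn.implicitFunction hn' hinv q.1 = Γ q := by
    filter_upwards [htend.eventually hloc] with q hq
    refine hq.1 ?_
    rw [heq q, hu0]
    exact (heq pU).symm
  have hev' : ∀ᶠ q in 𝓝 p, φ q = (hΦn.implicitFunction hn' hinv q) 1 := by
    have h1 := (nhds_subtype_eq_comap (p := fun x => x ∈ U) (x := pU)) ▸ hev
    rw [eventually_comap] at h1
    filter_upwards [h1, hU.mem_nhds hp] with q hq hqU
    rw [hq ⟨q, hqU⟩ rfl, hΓ]
    simp
  refine ContDiffAt.congr_of_eventuallyEq ?_ hev'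
  have h3 : ContDiff ℝ n (fun γ : C(I, E) => γ 1) :=
    (ContinuousMap.evalCLM ℝ (1 : I) : C(I, E) →L[ℝ] E).contDiff
  exact h3.contDiffAt.comp p hsm

end Crest.Agent.ODEFlow
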