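import Mathlib
import Crest.Agent.ODEFlow.Smooth

open Set Filter Topology Metric MeasureTheory
open scoped ContDiff NNReal unitInterval

set_option linter.unusedSectionVars false

noncomputable section

namespace Crest.Agent.ODEFlow

universe u

variable {E : Type u} [NormedAddCommGroup E] [NormedSpace ℝ E] [FiniteDimensional ℝ E]

/-- Existence of a smooth local flow, with a uniform time of existence on a ball. -/
theorem exists_local_flow {n : ℕ∞} (hn : n ≠ 0) (X : E → E) (hX : ContDiff ℝ n X) (R : ℝ) (hR : 0 < R) :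
    ∃ δ : ℝ, 0 < δ ∧ ∃ φ : ℝ × E → E, ContDiffOn ℝ n φ (Ioo (-δ) δ ×ˢ ball 0 R) ∧
      (∀ x ∈ ball (0:E) R, φ (0, x) = x) ∧
      ∀ t ∈ Ioo (-δ) δ, ∀ x ∈ ball (0:E) R, HasDerivAt (fun s => φ (s, x)) (X (φ (t, x))) t := by
  have : CompleteSpace E := FiniteDimensional.complete ℝ E
  have : ProperSpace E := FiniteDimensional.proper ℝ E
  have hX1 : ContDiff ℝ 1 X := hX.of_le (by
    have : (1 : ℕ∞) ≤ n := Order.one_le_iff_ne_zero.2 hn
    exact_mod_cast this)
  -- bounds on the ball of radius R + 1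
  have hcomp : IsCompact (closedBall (0:E) (R + 1)) := isCompact_closedBall _ _
  obtain ⟨M, hM⟩ := hcomp.exists_bound_of_continuousOn hX1.continuous.continuousOn
  obtain ⟨K, hK⟩ := hcomp.exists_bound_of_continuousOn (hX1.continuous_fderiv (by simp)).continuousOn
  set M' : ℝ≥0 := ⟨max M 0, le_max_right _ _⟩ with hM'
  set K' : ℝ≥0 := ⟨max K 0, le_max_right _ _⟩ with hK'
  set R' : ℝ≥0 := ⟨R, hR.le⟩ with hR'
  set δ : ℝ := 1 / (max M 0 + 1) with hδ
  have hδ0 : 0 < δ := by positivity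
  have hpl : IsPicardLindelof (fun _ => X) (tmin := -δ) (tmax := δ) ⟨0, by constructor <;> linarith⟩
      (0:E) (R' + 1) R' M' K' := by
    refine IsPicardLindelof.of_time_independent ?_ ?_ ?_
    · intro x hx
      exact (hM x hx).trans (le_max_left _ _)
    · refine (convex_closedBall (0:E) _).lipschitzOnWith_of_nnnorm_fderiv_le (𝕜 := ℝ)
        (fun x _ => hX1.differentiable (by simp) x) ?_
      intro x hx
      have := (hK x hx).trans (le_max_left K 0)
      exact_mod_cast this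
    · simp only [sub_zero, zero_sub, neg_neg, max_self]
      have h1 : (M' : ℝ) = max M 0 := rfl
      have h2 : ((R' + 1 : ℝ≥0) : ℝ) = R + 1 := rfl
      have h3 : (R' : ℝ) = R := rfl
      rw [h1, h2, h3, hδ]
      have : max M 0 * (1 / (max M 0 + 1)) ≤ 1 := by
        rw [mul_one_div, div_le_one (by positivity)]
        linarith
      linarith
  obtain ⟨α, hα1, hα2⟩ := hpl.exists_forall_mem_closedBall_eq_hasDerivWithinAt_continuousOn
  have hsub : ball (0:E) R ⊆ closedBall (0:E) R' := ball_subset_closedBall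
  refine ⟨δ, hδ0, fun p => α (p.2, p.1), ?_, ?_, ?_⟩
  · refine contDiffOn_flow hn X hX _ (isOpen_Ioo.prod isOpen_ball) ?_ _ ?_ ?_ ?_
    · rintro ⟨t, x⟩ ⟨ht, hx⟩ s hs
      refine ⟨?_, hx⟩
      simp only [mem_Ioo] at ht ⊢
      have hs0 := hs.1
      have hs1 := hs.2
      have ht' : |t| < δ := abs_lt.2 ⟨ht.1, ht.2⟩
      rw [← abs_lt, abs_mul, abs_of_nonneg hs0]
      calc s * |t| ≤ 1 * |t| := by gcongr
        _ < δ := by linarith
    · refine hα2.comp (by fun_prop) ?_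
      rintro ⟨t, x⟩ ⟨ht, hx⟩
      exact ⟨hsub hx, Ioo_subset_Icc_self ht⟩
    · rintro ⟨t, x⟩ ⟨ht, hx⟩
      exact (hα1 x (hsub hx)).1
    · rintro ⟨t, x⟩ ⟨ht, hx⟩
      exact ((hα1 x (hsub hx)).2 t (Ioo_subset_Icc_self ht)).hasDerivAt (Icc_mem_nhds ht.1 ht.2)
  · intro x hx
    exact (hα1 x (hsub hx)).1
  · intro t ht x hx
    exact ((hα1 x (hsub hx)).2 t (Ioo_subset_Icc_self ht)).hasDerivAt (Icc_mem_nhds ht.1 ht.2)

/-- The variational equation. -/
theorem hasDerivAt_fderiv_flow (X : E → E) (hX : ContDiff ℝ 2 X)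
    (U : Set (ℝ × E)) (hU : IsOpen U) (φ : ℝ × E → E) (hφ : ContDiffOn ℝ 2 φ U)
    (hd : ∀ p ∈ U, HasDerivAt (fun t => φ (t, p.2)) (X (φ p)) p.1)
    (p : ℝ × E) (hp : p ∈ U) (w : E) :
    HasDerivAt (fun t => fderiv ℝ φ (t, p.2) (0, w)) (fderiv ℝ X (φ p) (fderiv ℝ φ p (0, w))) p.1 := by
  have hφat : ContDiffAt ℝ 2 φ p := hφ.contDiffAt (hU.mem_nhds hp)
  have hsymm : IsSymmSndFDerivAt ℝ φ p := hφat.isSymmSndFDerivAt (by simp)
  have hd2 : DifferentiableAt ℝ (fderiv ℝ φ) p :=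
    (hφat.fderiv_right (m := 1) (by norm_num)).differentiableAt (by simp)
  -- time derivative of the flow
  have htime : ∀ q ∈ U, fderiv ℝ φ q (1, 0) = X (φ q) := by
    intro q hq
    have h1 : DifferentiableAt ℝ φ q := (hφ.contDiffAt (hU.mem_nhds hq)).differentiableAt (by simp)
    have h2 : HasDerivAt (fun t : ℝ => ((t, q.2) : ℝ × E)) (1, 0) q.1 :=
      (hasDerivAt_id q.1).prodMk (hasDerivAt_const q.1 q.2)
    have h3 : HasDerivAt (fun t => φ (t, q.2)) (fderiv ℝ φ q (1, 0)) q.1 :=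
      h1.hasFDerivAt.comp_hasDerivAt (f := fun t : ℝ => ((t, q.2) : ℝ × E)) q.1 h2
    exact h3.unique (hd q hq)
  -- differentiate it in space
  have hA : fderiv ℝ (fderiv ℝ φ) p (0, w) (1, 0) = fderiv ℝ X (φ p) (fderiv ℝ φ p (0, w)) := by
    have h1 : HasFDerivAt (fun q => fderiv ℝ φ q (1, 0))
        ((fderiv ℝ (fderiv ℝ φ) p).flip (1, 0)) p := by
      have := (ContinuousLinearMap.apply ℝ E ((1, 0) : ℝ × E)).hasFDerivAt.comp p hd2.hasFDerivAt
      exact this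
    have h2 : HasFDerivAt (fun q => X (φ q)) ((fderiv ℝ X (φ p)).comp (fderiv ℝ φ p)) p :=
      ((hX.differentiable (by simp)) _).hasFDerivAt.comp p (hφat.differentiableAt (by simp)).hasFDerivAt
    have h3 : (fun q => fderiv ℝ φ q (1, 0)) =ᶠ[𝓝 p] fun q => X (φ q) := by
      filter_upwards [hU.mem_nhds hp] with q hq using htime q hq
    have h4 := (h1.congr_of_eventuallyEq h3.symm).unique h2
    have := DFunLike.congr_fun h4 (0, w)
    simpa using this
  have h2 : HasDerivAt (fun t : ℝ => ((t, p.2) : ℝ × E)) (1, 0) p.1 :=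
    (hasDerivAt_id p.1).prodMk (hasDerivAt_const p.1 p.2)
  have h5 : HasDerivAt (fun t => fderiv ℝ φ (t, p.2)) (fderiv ℝ (fderiv ℝ φ) p (1, 0)) p.1 :=
    hd2.hasFDerivAt.comp_hasDerivAt (f := fun t : ℝ => ((t, p.2) : ℝ × E)) p.1 h2
  have h6 : HasDerivAt (fun t => fderiv ℝ φ (t, p.2) (0, w)) (fderiv ℝ (fderiv ℝ φ) p (1, 0) (0, w)) p.1 :=
    (ContinuousLinearMap.apply ℝ E ((0, w) : ℝ × E)).hasFDerivAt.comp_hasDerivAt p.1 h5
  rw [hsymm (1, 0) (0, w), hA] at h6
  exact h6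

end Crest.Agent.ODEFlow
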